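import Vale.Agent.H9.Snaky.Mask

namespace Vale.Agent.H9.Snaky

/-- The data of a proof: three levels of lists of entries; an entry is the list
`M :: E :: c :: codes`. -/
abbrev Table := List (List (List (List ℕ)))

/-- `n`-th element with default. -/
noncomputable def nth {α : Type} (d : α) (l : List α) (n : ℕ) : α :=
  @List.rec α (fun _ => ℕ → α) (fun _ => d)
    (fun a _ ih n => @Nat.rec (fun _ => α) a (fun k _ => ih k) n) l n

/-- Entry number `j`. -/
noncomputable def entry (T : Table) (j : ℕ) : List ℕ :=
  nth [] (nth [] (nth [] T (Nat.shiftRight j 10)) (Nat.land (Nat.shiftRight j 5) 31))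
    (Nat.land j 31)

/-- First mask of an entry. -/
noncomputable def mOf (l : List ℕ) : ℕ := nth 0 l 0

/-- Second mask of an entry. -/
noncomputable def eOf (l : List ℕ) : ℕ := nth 0 l 1

/-- Check of one child code; `f` is the check of the remaining codes. -/
noncomputable def chkOne (T : Table) (i MC EE code acc : ℕ) (f : ℕ → Bool) : Bool :=
    force (Nat.land code 1048575) fun j =>
    force (Nat.land (Nat.shiftRight code 20) 7) fun g =>
    force (Nat.shiftRight code 23) fun s =>
    force (Nat.shiftLeft (tf g (mOf (entry T j))) s) fun A =>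
    force (Nat.shiftLeft (tf g (eOf (entry T j))) s) fun F =>
    (Nat.ble (Nat.succ j) i && (Nat.ble (Nat.land s 127) 63 && (sub A MC && (sub F EE &&
      force (Nat.land acc F) fun acc' => f acc'))))

/-- Check of the children codes of an entry: `MC` and `EE` are the shifted masks of the entry. -/
noncomputable def chkCh (T : Table) (i MC EE : ℕ) (l : List ℕ) : ℕ → Bool :=
  @List.rec ℕ (fun _ => ℕ → Bool) (fun acc => sub acc MC)
    (fun code _ ih acc => chkOne T i MC EE code acc ih) l

theorem chkCh_nil {T : Table} {i MC EE acc : ℕ} : chkCh T i MC EE [] acc = sub acc MC := rfl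

theorem chkCh_cons {T : Table} {i MC EE acc code : ℕ} {l : List ℕ} :
    chkCh T i MC EE (code :: l) acc = chkOne T i MC EE code acc (chkCh T i MC EE l) := rfl

/-- Check of the entry number `i`. -/
noncomputable def chk (T : Table) (i : ℕ) : List ℕ → Bool
  | M :: E :: c :: code :: l =>
    force M fun M => force E fun E => force c fun c =>
    (sub M box && (sub E box && (sub (Nat.shiftLeft 1 c) E &&
      force (Nat.shiftLeft (Nat.lor M (Nat.shiftLeft 1 c)) 4128) fun MC =>
      force (Nat.shiftLeft E 4128) fun EE => chkCh T i MC EE (code :: l) EE)))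
  | _ => false

/-- The mask of Snaky: the entry number `0` is `[snakyMask]`. -/
def snakyMask : ℕ := 0x180000000000000000000000000000000f

theorem pat_zero : Pat 1 snakyMask 0 := by
  refine ⟨{p | p ∈ snaky}, ∅, good_copy (A := snaky) ?_ fun x hx => hx, ?_, ?_⟩
  · refine ⟨0, 1, ⟨1, 1, fun i j => ?_⟩, ?_⟩
    · fin_cases i <;> fin_cases j <;> simp
    · simp [act]
  · intro p hp
    simp only [snaky, Finset.mem_insert, Finset.mem_singleton, Set.mem_setOf_eq] at hp
    rcases hp with rfl | rfl | rfl | rfl | rfl | rfl
    · exact ⟨0, 0, by norm_num, by norm_num, rfl, by decide⟩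
    · exact ⟨1, 0, by norm_num, by norm_num, rfl, by decide⟩
    · exact ⟨2, 0, by norm_num, by norm_num, rfl, by decide⟩
    · exact ⟨3, 0, by norm_num, by norm_num, rfl, by decide⟩
    · exact ⟨3, 1, by norm_num, by norm_num, rfl, by decide⟩
    · exact ⟨4, 1, by norm_num, by norm_num, rfl, by decide⟩
  · intro p hp; exact hp.elim

theorem covers_cellsOf {A : ℕ} (h : sub A box = true) : Covers A (cellsOf A) := by
  rintro p ⟨x, y, hx, hb, rfl⟩
  have := box_bit (sub_spec h hb)
  exact ⟨x, y, by omega, by omega, rfl, hb⟩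

/-- The geometric meaning of the shifted masks. -/
theorem mem_cellsOf_of_shift {A x y s : ℕ} (hA : ∀ i, A.testBit i = true → i % 128 < 32)
    (hs : s % 128 < 64) (hx : x < 32)
    (h : (A <<< 4128).testBit (128 * y + x + s) = true) :
    ((x : ℤ) + (s % 128 : ℕ) - 32, (y : ℤ) + (s / 128 : ℕ) - 32) ∈ cellsOf A := by
  rw [Nat.testBit_shiftLeft, Bool.and_eq_true, decide_eq_true_eq] at h
  have h1 := hA _ h.2
  have h3 := h.2
  have h2 := h.1
  obtain ⟨X, hX⟩ : ∃ X, X = x + s % 128 - 32 := ⟨_, rfl⟩
  obtain ⟨Y, hY⟩ : ∃ Y, Y = y + s / 128 - 32 := ⟨_, rfl⟩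
  have e : 128 * y + x + s - 4128 = 128 * Y + X := by omega
  refine ⟨X, Y, by omega, by rw [← e]; exact h3, ?_⟩
  rw [Prod.mk.injEq]
  constructor <;> omega

theorem testBit_shift_add {A i s : ℕ} (h : A.testBit i = true) :
    (Nat.shiftLeft A s).testBit (i + s) = true := by
  change (A <<< s).testBit (i + s) = true
  rw [Nat.testBit_shiftLeft]
  simp [h]

/-- The children found by the check, together with the intersection of their masks. -/
theorem chkCh_spec {T : Table} {i MC EE : ℕ} : ∀ (l : List ℕ) (acc : ℕ),
    chkCh T i MC EE l acc = true →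
    (∀ code ∈ l, ∃ j g s : ℕ, j < i ∧ s % 128 < 64 ∧
      sub (Nat.shiftLeft (tf g (mOf (entry T j))) s) MC = true ∧
      sub (Nat.shiftLeft (tf g (eOf (entry T j))) s) EE = true ∧
      j = Nat.land code 1048575 ∧ g = Nat.land (Nat.shiftRight code 20) 7 ∧
      s = Nat.shiftRight code 23) ∧
    ∀ k : ℕ, acc.testBit k = true → (∀ code ∈ l,
      (Nat.shiftLeft (tf (Nat.land (Nat.shiftRight code 20) 7)
        (eOf (entry T (Nat.land code 1048575)))) (Nat.shiftRight code 23)).testBit k = true) →
      MC.testBit k = true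
  | [], acc, h => by
    refine ⟨by simp, fun k hk _ => ?_⟩
    rw [chkCh_nil] at h
    exact sub_spec h hk
  | code :: l, acc, h => by
    rw [chkCh_cons] at h
    unfold chkOne at h
    simp only [force_eq, Bool.and_eq_true] at h
    obtain ⟨h1, h2, h3, h4, h5⟩ := h
    obtain ⟨ih1, ih2⟩ := chkCh_spec l _ h5
    refine ⟨?_, ?_⟩
    · intro code' hc
      rcases List.mem_cons.mp hc with rfl | hc
      · refine ⟨_, _, _, Nat.le_of_ble_eq_true h1, ?_, h3, h4, rfl, rfl, rfl⟩
        have := Nat.le_of_ble_eq_true h2
        change (Nat.shiftRight code' 23) &&& 127 ≤ 63 at this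
        have e : (127 : ℕ) = 2 ^ 7 - 1 := by norm_num
        rw [e, Nat.and_two_pow_sub_one_eq_mod] at this
        omega
      · exact ih1 code' hc
    · intro k hk hall
      refine ih2 k ?_ (fun c hc => hall c (List.mem_cons_of_mem _ hc))
      change (acc &&& _).testBit k = true
      rw [Nat.testBit_land, hk, hall code List.mem_cons_self]; rfl

theorem chk_sound {T : Table} {i : ℕ} {l : List ℕ} (h : chk T i l = true)
    (ih : ∀ j < i, Pat (j + 1) (mOf (entry T j)) (eOf (entry T j))) :
    Pat (i + 1) (mOf l) (eOf l) := by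
  match l, h with
  | M :: E :: c :: code :: l, h =>
    unfold chk at h
    simp only [force_eq, Bool.and_eq_true] at h
    obtain ⟨hM, hE, hc, h⟩ := h
    change Pat (i + 1) M E
    obtain ⟨h1, h2⟩ := chkCh_spec _ _ h
    have hcE : E.testBit c = true := sub_spec hc (by
      change (1 <<< c).testBit c = true
      rw [Nat.testBit_shiftLeft]; simp)
    have hcb := box_bit (sub_spec hE hcE)
    have hMC : ∀ k, (M ||| 1 <<< c).testBit k = true → k % 128 < 32 := by
      intro k hk
      rw [Nat.testBit_lor, Bool.or_eq_true] at hk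
      rcases hk with hk | hk
      · exact (box_bit (sub_spec hM hk)).2
      · rw [Nat.testBit_shiftLeft, Bool.and_eq_true, decide_eq_true_eq] at hk
        have : k - c = 0 := by
          by_contra hne
          have := Nat.testBit_lt_two_pow (x := 1) (i := k - c)
            (Nat.one_lt_two_pow hne)
          rw [this] at hk
          exact Bool.false_ne_true hk.2
        have : k = c := by omega
        rw [this]; exact hcb.2
    have hEb : ∀ k, E.testBit k = true → k % 128 < 32 := fun k hk => (box_bit (sub_spec hE hk)).2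
    have hMCcell : ∀ p ∈ cellsOf (M ||| 1 <<< c),
        p ∈ cellsOf M ∨ p = (((c % 128 : ℕ) : ℤ), ((c / 128 : ℕ) : ℤ)) := by
      rintro p ⟨x, y, hx, hb, rfl⟩
      rw [Nat.testBit_lor, Bool.or_eq_true] at hb
      rcases hb with hb | hb
      · exact Or.inl ⟨x, y, hx, hb, rfl⟩
      · right
        rw [Nat.testBit_shiftLeft, Bool.and_eq_true, decide_eq_true_eq] at hb
        have : 128 * y + x - c = 0 := by
          by_contra hne
          have := Nat.testBit_lt_two_pow (x := 1) (i := 128 * y + x - c)
            (Nat.one_lt_two_pow hne)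
          rw [this] at hb
          exact Bool.false_ne_true hb.2
        rw [Prod.mk.injEq]
        constructor <;> omega
    refine ⟨cellsOf M, cellsOf E, ?_, covers_cellsOf hM, covers_cellsOf hE⟩
    refine good_step (((c % 128 : ℕ) : ℤ), ((c / 128 : ℕ) : ℤ)) ?_ ?_
    · refine ⟨c % 128, c / 128, by omega, ?_, rfl⟩
      have : 128 * (c / 128) + c % 128 = c := by omega
      rw [this]; exact hcE
    · intro d hdM hdc
      -- every child gives a pattern
      have hchild : ∀ code' ∈ code :: l, ∃ M' E' : Set Cell, Good i M' E' ∧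
          (∀ x ∈ M', x ∈ cellsOf M ∨ x = (((c % 128 : ℕ) : ℤ), ((c / 128 : ℕ) : ℤ))) ∧
          (∀ x ∈ E', x ∈ cellsOf E) ∧ (d ∈ E' → ∃ x y : ℕ, x < 32 ∧
            d = ((x : ℤ) + (Nat.shiftRight code' 23 % 128 : ℕ) - 32,
              (y : ℤ) + (Nat.shiftRight code' 23 / 128 : ℕ) - 32) ∧
            Nat.shiftRight code' 23 % 128 < 64 ∧
            (Nat.shiftLeft (tf (Nat.land (Nat.shiftRight code' 20) 7)
              (eOf (entry T (Nat.land code' 1048575)))) (Nat.shiftRight code' 23)).testBit
                (128 * y + x + Nat.shiftRight code' 23) = true) := by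
        intro code' hc'
        obtain ⟨j, g, s, hj, hs, hA, hF, ej, eg, es⟩ := h1 code' hc'
        rw [← ej, ← eg, ← es]
        obtain ⟨S, S', hG, hS, hS'⟩ := (ih j hj).tf g
        refine ⟨Equiv.addLeft (((s % 128 : ℕ) : ℤ) - 32, ((s / 128 : ℕ) : ℤ) - 32) '' S,
          Equiv.addLeft (((s % 128 : ℕ) : ℤ) - 32, ((s / 128 : ℕ) : ℤ) - 32) '' S',
          (hG.map (nice_add _)).mono (by omega), ?_, ?_, ?_⟩
        · rintro _ ⟨p, hp, rfl⟩
          obtain ⟨x, y, hx, hy, rfl, hb⟩ := hS p hp
          have hb2 := sub_spec hA (testBit_shift_add (s := s) hb)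
          have := mem_cellsOf_of_shift hMC hs hx hb2
          have := hMCcell _ this
          convert this using 2
          · simp only [Equiv.coe_addLeft, Prod.mk_add_mk, eq_iff_iff]
            rw [show (((s % 128 : ℕ) : ℤ) - 32 + x, ((s / 128 : ℕ) : ℤ) - 32 + y) =
              ((x : ℤ) + (s % 128 : ℕ) - 32, (y : ℤ) + (s / 128 : ℕ) - 32) by
                rw [Prod.mk.injEq]; constructor <;> ring]
          · simp only [Equiv.coe_addLeft, Prod.mk_add_mk]
            rw [Prod.mk.injEq]; constructor <;> ring
        · rintro _ ⟨p, hp, rfl⟩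
          obtain ⟨x, y, hx, hy, rfl, hb⟩ := hS' p hp
          have hb2 := sub_spec hF (testBit_shift_add (s := s) hb)
          have := mem_cellsOf_of_shift hEb hs hx hb2
          convert this using 1
          simp only [Equiv.coe_addLeft, Prod.mk_add_mk]
          rw [Prod.mk.injEq]; constructor <;> ring
        · rintro ⟨p, hp, rfl⟩
          obtain ⟨x, y, hx, hy, rfl, hb⟩ := hS' p hp
          refine ⟨x, y, hx, ?_, hs, testBit_shift_add (s := s) hb⟩
          simp only [Equiv.coe_addLeft, Prod.mk_add_mk]
          rw [Prod.mk.injEq]; constructor <;> ring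
      by_contra hcon
      -- then `d` lies in all of the second sets
      have hd : ∀ code' ∈ code :: l, ∃ x y : ℕ, x < 32 ∧
            d = ((x : ℤ) + (Nat.shiftRight code' 23 % 128 : ℕ) - 32,
              (y : ℤ) + (Nat.shiftRight code' 23 / 128 : ℕ) - 32) ∧
            Nat.shiftRight code' 23 % 128 < 64 ∧
            (Nat.shiftLeft (tf (Nat.land (Nat.shiftRight code' 20) 7)
              (eOf (entry T (Nat.land code' 1048575)))) (Nat.shiftRight code' 23)).testBit
                (128 * y + x + Nat.shiftRight code' 23) = true := by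
        intro code' hc'
        obtain ⟨M', E', hG, hM', hE', hd⟩ := hchild code' hc'
        by_cases hdE : d ∈ E'
        · exact hd hdE
        · exact absurd ⟨M', E', hG, hM', hE', hdE⟩ hcon
      obtain ⟨x, y, hx, hd0, hs, hb⟩ := hd code List.mem_cons_self
      -- the common bit index
      have hk : ∀ code' ∈ code :: l, (Nat.shiftLeft (tf (Nat.land (Nat.shiftRight code' 20) 7)
              (eOf (entry T (Nat.land code' 1048575)))) (Nat.shiftRight code' 23)).testBit
                (128 * y + x + Nat.shiftRight code 23) = true := by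
        intro code' hc'
        obtain ⟨x', y', hx', hd', hs', hb'⟩ := hd code' hc'
        rw [hd0, Prod.mk.injEq] at hd'
        have e : 128 * y + x + Nat.shiftRight code 23 = 128 * y' + x' + Nat.shiftRight code' 23 := by
          obtain ⟨e1, e2⟩ := hd'
          generalize Nat.shiftRight code 23 = s at *
          generalize Nat.shiftRight code' 23 = s' at *
          omega
        rw [e]; exact hb'
      obtain ⟨_, _, _, _, _, _, hF, ej, eg, es⟩ := h1 code List.mem_cons_self
      rw [ej, eg, es] at hF
      have hEE := sub_spec hF hb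
      have := h2 _ hEE hk
      have := mem_cellsOf_of_shift hMC hs hx this
      rw [← hd0] at this
      rcases hMCcell _ this with h | h
      · exact hdM h
      · exact hdc h

end Vale.Agent.H9.Snaky
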