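import Vale.Agent.H9.Snaky.Check

namespace Vale.Agent.H9.Snaky

/-- Check of the entries `i, …, i + k - 1`. -/
noncomputable def chkRange (T : Table) (i k : ℕ) : Bool :=
  @Nat.rec (fun _ => ℕ → Bool) (fun _ => true)
    (fun _ ih i => chk T i (entry T i) && force (Nat.succ i) fun i' => ih i') k i

theorem chkRange_succ {T : Table} {i k : ℕ} : chkRange T i (k + 1) =
    (chk T i (entry T i) && force (Nat.succ i) fun i' => chkRange T i' k) := rfl

theorem chkRange_spec {T : Table} : ∀ (k i : ℕ), chkRange T i k = true →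
    ∀ j, i ≤ j → j < i + k → chk T j (entry T j) = true
  | 0, i, _, j, h1, h2 => by omega
  | k + 1, i, h, j, h1, h2 => by
    rw [chkRange_succ, force_eq, Bool.and_eq_true] at h
    rcases Nat.eq_or_lt_of_le h1 with rfl | h1
    · exact h.1
    · exact chkRange_spec k (Nat.succ i) h.2 j h1 (by omega)

theorem pat_of_checks {T : Table} {n : ℕ} (h0 : entry T 0 = [snakyMask])
    (h : ∀ j, 1 ≤ j → j < n → chk T j (entry T j) = true) :
    ∀ j, j < n → Pat (j + 1) (mOf (entry T j)) (eOf (entry T j)) := by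
  intro j
  induction j using Nat.strong_induction_on with
  | _ j ih =>
    intro hj
    rcases Nat.eq_zero_or_pos j with rfl | hpos
    · rw [h0]; exact pat_zero
    · exact chk_sound (h j hpos hj) fun i hi => ih i hi (by omega)

theorem winIn_of_pat {n B : ℕ} (h : Pat n 0 B) : WinIn n ∅ ∅ := by
  obtain ⟨S, S', hG, hS, _⟩ := h
  refine hG ∅ ∅ (fun x hx => ?_) (fun x _ => by simp)
  obtain ⟨x, y, _, _, _, hb⟩ := hS x hx
  simp at hb

end Vale.Agent.H9.Snaky
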