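import Vale.Agent.H9.Snaky.Table
import Vale.Agent.H9.Snaky.Range

namespace Vale.Agent.H9.Snaky

set_option maxRecDepth 100000 in
theorem ver5 : chkRange table 2201 440 = true := by decide +kernel

end Vale.Agent.H9.Snaky
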