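import Vale.Agent.H9.Snaky.Ver0
import Vale.Agent.H9.Snaky.Ver1
import Vale.Agent.H9.Snaky.Ver2
import Vale.Agent.H9.Snaky.Ver3
import Vale.Agent.H9.Snaky.Ver4
import Vale.Agent.H9.Snaky.Ver5
import Vale.Agent.H9.Snaky.Ver6
import Vale.Agent.H9.Snaky.Ver7

namespace Vale.Agent.H9.Snaky

theorem all_checks (j : ℕ) (h1 : 1 ≤ j) (h2 : j < 3510) : chk table j (entry table j) = true := by
  rcases Nat.lt_or_ge j 441 with h | h
  · exact chkRange_spec _ _ ver0 j (by omega) (by omega)
  rcases Nat.lt_or_ge j 881 with h | h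
  · exact chkRange_spec _ _ ver1 j (by omega) (by omega)
  rcases Nat.lt_or_ge j 1321 with h | h
  · exact chkRange_spec _ _ ver2 j (by omega) (by omega)
  rcases Nat.lt_or_ge j 1761 with h | h
  · exact chkRange_spec _ _ ver3 j (by omega) (by omega)
  rcases Nat.lt_or_ge j 2201 with h | h
  · exact chkRange_spec _ _ ver4 j (by omega) (by omega)
  rcases Nat.lt_or_ge j 2641 with h | h
  · exact chkRange_spec _ _ ver5 j (by omega) (by omega)
  rcases Nat.lt_or_ge j 3081 with h | h
  · exact chkRange_spec _ _ ver6 j (by omega) (by omega)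
  exact chkRange_spec _ _ ver7 j (by omega) (by omega)

theorem entry_zero : entry table 0 = [snakyMask] := by decide +kernel

theorem root_mask : mOf (entry table 3509) = 0 := by decide +kernel

theorem maker_wins : MakerWinsWithin 3510 := by
  have h := pat_of_checks (T := table) (n := 3510) entry_zero all_checks 3509 (by norm_num)
  rw [root_mask] at h
  exact makerWinsWithin_of_winIn (winIn_of_pat h)

end Vale.Agent.H9.Snaky
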