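import Mathlib

/-!
The weak achievement game for the hexomino Snaky on the square grid.
-/

namespace Vale.Agent.H9.Snaky

/-- A cell of the square grid, indexed by its lower-left corner. -/
abbrev Cell := ℤ × ℤ

/-- The hexomino Snaky. -/
def snaky : Finset Cell := {(0, 0), (1, 0), (2, 0), (3, 0), (3, 1), (4, 1)}

/-- `R` is one of the eight `2 × 2` signed permutation matrices. -/
def IsSignedPerm (R : Matrix (Fin 2) (Fin 2) ℤ) : Prop :=
  ∃ (π : Equiv.Perm (Fin 2)) (s : Fin 2 → ℤˣ), ∀ i j, R i j = if π i = j then (s i : ℤ) else 0

/-- The matrix `R` applied to the cell `p`. -/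
def act (R : Matrix (Fin 2) (Fin 2) ℤ) (p : Cell) : Cell :=
  (R 0 0 * p.1 + R 0 1 * p.2, R 1 0 * p.1 + R 1 1 * p.2)

/-- `A` is an allowed copy of Snaky: `A = t + R(S)` with `R` a signed permutation matrix. -/
def IsCopy (A : Finset Cell) : Prop :=
  ∃ (t : Cell) (R : Matrix (Fin 2) (Fin 2) ℤ), IsSignedPerm R ∧
    A = snaky.image fun p => t + act R p

/-- A strategy of Maker: it chooses Maker's next claim from the list of all claims that Breaker
has made so far (Maker's own earlier claims are determined by that list and the strategy). -/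
abbrev Strategy := List Cell → Cell

/-- Maker's claim in turn `n` (turns are numbered `0, 1, 2, …`) when Maker follows `σ` and
Breaker claims `b 0, b 1, b 2, …`. -/
def makerClaim (σ : Strategy) (b : ℕ → Cell) (n : ℕ) : Cell := σ ((List.range n).map b)

/-- The cells claimed by Maker in the turns `0, …, n - 1`. -/
def makerCells (σ : Strategy) (b : ℕ → Cell) (n : ℕ) : Finset Cell :=
  (Finset.range n).image (makerClaim σ b)

/-- The cells claimed by Breaker in the turns `0, …, n - 1`. -/
def breakerCells (b : ℕ → Cell) (n : ℕ) : Finset Cell := (Finset.range n).image b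

/-- After Maker's claim in turn `n`, Maker owns every cell of some allowed copy. -/
def MakerDone (σ : Strategy) (b : ℕ → Cell) (n : ℕ) : Prop :=
  ∃ A, IsCopy A ∧ A ⊆ makerCells σ b (n + 1)

/-- Maker's claim in turn `n` is legal: the cell was not claimed before. -/
def MakerLegal (σ : Strategy) (b : ℕ → Cell) (n : ℕ) : Prop :=
  makerClaim σ b n ∉ makerCells σ b n ∪ breakerCells b n

/-- Breaker's claim in turn `n` (made after Maker's claim in turn `n`) is legal. -/
def BreakerLegal (σ : Strategy) (b : ℕ → Cell) (n : ℕ) : Prop :=
  b n ∉ makerCells σ b (n + 1) ∪ breakerCells b n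

/-- Maker has a strategy on the empty board which, whatever Breaker does, completes an allowed
copy within the turns `0, …, N - 1`, all of Maker's claims being legal: for every sequence `b` of
claims of Breaker that are legal as long as Maker has not won, there is a turn `n < N` after
whose Maker claim Maker owns an allowed copy. -/
def MakerWinsWithin (N : ℕ) : Prop :=
  ∃ σ : Strategy, ∀ b : ℕ → Cell,
    (∀ n, (∀ k ≤ n, ¬ MakerDone σ b k) → BreakerLegal σ b n) →
      ∃ n < N, MakerDone σ b n ∧ ∀ k ≤ n, MakerLegal σ b k

end Vale.Agent.H9.Snaky
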