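import Vale.Agent.H9.Snaky.Theory

namespace Vale.Agent.H9.Snaky

theorem IsSignedPerm.mul {R S : Matrix (Fin 2) (Fin 2) ℤ} (hR : IsSignedPerm R)
    (hS : IsSignedPerm S) : IsSignedPerm (R * S) := by
  obtain ⟨π, s, hR⟩ := hR
  obtain ⟨ρ, u, hS⟩ := hS
  refine ⟨π.trans ρ, fun i => s i * u (π i), fun i j => ?_⟩
  rw [Matrix.mul_apply, Finset.sum_eq_single (π i)]
  · rw [hR, hS]
    by_cases h : ρ (π i) = j
    · simp [h]
    · simp [h]
  · intro k _ hk
    rw [hR, if_neg (Ne.symm hk), zero_mul]
  · simp

theorem act_mul (R S : Matrix (Fin 2) (Fin 2) ℤ) (p : Cell) : act (R * S) p = act R (act S p) := by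
  simp only [act, Matrix.mul_apply, Fin.sum_univ_two]
  ext <;> ring

theorem act_add (R : Matrix (Fin 2) (Fin 2) ℤ) (p q : Cell) : act R (p + q) = act R p + act R q := by
  simp only [act]
  ext <;> simp <;> ring

theorem IsCopy.image {A : Finset Cell} (hA : IsCopy A) (t : Cell)
    {R : Matrix (Fin 2) (Fin 2) ℤ} (hR : IsSignedPerm R) :
    IsCopy (A.image fun p => t + act R p) := by
  obtain ⟨t', R', hR', rfl⟩ := hA
  refine ⟨t + act R t', R * R', hR.mul hR', ?_⟩
  rw [Finset.image_image]
  refine Finset.image_congr fun p _ => ?_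
  simp only [Function.comp, act_mul, act_add, add_assoc]

/-- A bijection of the cells that maps allowed copies to allowed copies. -/
def Nice (φ : Cell ≃ Cell) : Prop := ∀ A : Finset Cell, IsCopy A → IsCopy (A.map φ.toEmbedding)

theorem nice_of (φ : Cell ≃ Cell) (t : Cell) {R : Matrix (Fin 2) (Fin 2) ℤ} (hR : IsSignedPerm R)
    (h : ∀ p, φ p = t + act R p) : Nice φ := by
  intro A hA
  have := hA.image t hR
  rw [Finset.map_eq_image]
  convert this using 2
  ext1 p
  exact h p

theorem WinIn.map {φ : Cell ≃ Cell} (hφ : Nice φ) : ∀ {n : ℕ} {m b : Finset Cell}, WinIn n m b →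
    WinIn n (m.map φ.toEmbedding) (b.map φ.toEmbedding)
  | 0, _, _, h => h.elim
  | n + 1, m, b, ⟨c, hm, hb, h⟩ => by
    refine ⟨φ c, by simpa using hm, by simpa using hb, ?_⟩
    rcases h with ⟨A, hA, hAm⟩ | h
    · left
      refine ⟨_, hφ A hA, ?_⟩
      intro x hx
      rw [Finset.mem_map_equiv] at hx
      have := hAm hx
      rw [Finset.mem_insert] at this ⊢
      rcases this with h | h
      · left; rw [← h]; simp
      · right; rw [Finset.mem_map_equiv]; exact h
    · right
      intro d hd1 hd2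
      rw [Finset.mem_insert, not_or, Finset.mem_map_equiv] at hd1
      rw [Finset.mem_map_equiv] at hd2
      have := h (φ.symm d) (by
        rw [Finset.mem_insert, not_or]
        refine ⟨fun h => hd1.1 ?_, hd1.2⟩
        rw [← h]; simp) hd2
      have := this.map hφ
      rw [Finset.map_insert, Finset.map_insert] at this
      simpa using this

theorem Good.map {φ : Cell ≃ Cell} (hφ : Nice φ) {n : ℕ} {M E : Set Cell} (h : Good n M E) :
    Good n (φ '' M) (φ '' E) := by
  intro m b h1 h2
  have := h (m.map φ.symm.toEmbedding) (b.map φ.symm.toEmbedding) (fun x hx => by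
    rw [Finset.mem_map_equiv]; simpa using h1 _ (Set.mem_image_of_mem _ hx)) (fun x hx => by
    rw [Finset.mem_map_equiv]; simpa using h2 _ (Set.mem_image_of_mem _ hx))
  have := this.map hφ
  rw [Finset.map_map, Finset.map_map] at this
  have e : φ.symm.toEmbedding.trans φ.toEmbedding = Function.Embedding.refl _ := by
    ext x <;> simp
  rwa [e, Finset.map_refl, Finset.map_refl] at this

/-- translation -/
theorem nice_add (t : Cell) : Nice (Equiv.addLeft t) := by
  refine nice_of _ t (R := 1) ⟨1, 1, fun i j => ?_⟩ (fun p => ?_)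
  · fin_cases i <;> fin_cases j <;> simp
  · simp [act]

/-- reflection in the first coordinate -/
def flipX (k : ℤ) : Cell ≃ Cell where
  toFun p := (k - p.1, p.2)
  invFun p := (k - p.1, p.2)
  left_inv p := by simp
  right_inv p := by simp

/-- reflection in the second coordinate -/
def flipY (k : ℤ) : Cell ≃ Cell where
  toFun p := (p.1, k - p.2)
  invFun p := (p.1, k - p.2)
  left_inv p := by simp
  right_inv p := by simp

theorem nice_flipX (k : ℤ) : Nice (flipX k) := by
  refine nice_of _ (k, 0) (R := !![-1, 0; 0, 1]) ⟨1, ![-1, 1], fun i j => ?_⟩ (fun p => ?_)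
  · fin_cases i <;> fin_cases j <;> simp
  · simp [act, flipX]; ring

theorem nice_flipY (k : ℤ) : Nice (flipY k) := by
  refine nice_of _ (0, k) (R := !![1, 0; 0, -1]) ⟨1, ![1, -1], fun i j => ?_⟩ (fun p => ?_)
  · fin_cases i <;> fin_cases j <;> simp
  · simp [act, flipY]; ring

theorem nice_swap : Nice (Equiv.prodComm ℤ ℤ) := by
  refine nice_of _ 0 (R := !![0, 1; 1, 0]) ⟨Equiv.swap 0 1, 1, fun i j => ?_⟩ (fun p => ?_)
  · fin_cases i <;> fin_cases j <;> simp
  · simp [act, Prod.swap]

end Vale.Agent.H9.Snaky
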