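import Vale.Agent.H9.Snaky.Data0
import Vale.Agent.H9.Snaky.Data1
import Vale.Agent.H9.Snaky.Data2
import Vale.Agent.H9.Snaky.Data3

namespace Vale.Agent.H9.Snaky

/-- The table of all entries. -/
def table : Table := [t0, t1, t2, t3]

/-- Number of entries. -/
def size : ℕ := 3510

end Vale.Agent.H9.Snaky
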