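import Vale.Agent.H9.Snaky.Game

namespace Vale.Agent.H9.Snaky

/-- Maker to move wins within `n` more turns from the position with Maker cells `m` and
Breaker cells `b`. -/
def WinIn : ℕ → Finset Cell → Finset Cell → Prop
  | 0, _, _ => False
  | n + 1, m, b => ∃ c, c ∉ m ∧ c ∉ b ∧
      ((∃ A, IsCopy A ∧ A ⊆ insert c m) ∨
        ∀ d, d ∉ insert c m → d ∉ b → WinIn n (insert c m) (insert d b))

theorem WinIn.succ : ∀ {n : ℕ} {m b : Finset Cell}, WinIn n m b → WinIn (n + 1) m b
  | 0, _, _, h => h.elim
  | n + 1, m, b, ⟨c, hm, hb, h⟩ => ⟨c, hm, hb, h.imp id fun h d h1 h2 => (h d h1 h2).succ⟩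

theorem WinIn.mono {n k : ℕ} (h : n ≤ k) {m b : Finset Cell} (hw : WinIn n m b) : WinIn k m b := by
  induction h with
  | refl => exact hw
  | step _ ih => exact ih.succ

/-- A pattern: Maker owns all of `M`, Breaker none of `E`; Maker (to move) wins within `n`. -/
def Good (n : ℕ) (M E : Set Cell) : Prop :=
  ∀ m b : Finset Cell, (∀ x ∈ M, x ∈ m) → (∀ x ∈ E, x ∉ b) → WinIn n m b

theorem Good.mono {n k : ℕ} (h : n ≤ k) {M E : Set Cell} (hg : Good n M E) : Good k M E :=
  fun m b h1 h2 => (hg m b h1 h2).mono h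

theorem exists_free (m b : Finset Cell) : ∃ c, c ∉ m ∧ c ∉ b := by
  obtain ⟨c, hc⟩ := Infinite.exists_notMem_finset (m ∪ b)
  rw [Finset.mem_union, not_or] at hc
  exact ⟨c, hc⟩

theorem good_copy {A : Finset Cell} (hA : IsCopy A) {M E : Set Cell} (hM : ∀ x ∈ A, x ∈ M) :
    Good 1 M E := by
  intro m b h1 _
  obtain ⟨c, hc1, hc2⟩ := exists_free m b
  exact ⟨c, hc1, hc2, Or.inl ⟨A, hA, fun x hx => Finset.mem_insert_of_mem (h1 x (hM x hx))⟩⟩

theorem good_step {n : ℕ} {M E : Set Cell} (c : Cell) (hc : c ∈ E)
    (h : ∀ d : Cell, d ∉ M → d ≠ c → ∃ M' E' : Set Cell, Good n M' E' ∧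
      (∀ x ∈ M', x ∈ M ∨ x = c) ∧ (∀ x ∈ E', x ∈ E) ∧ d ∉ E') :
    Good (n + 1) M E := by
  intro m b h1 h2
  obtain ⟨c', hc1, hc2, hc3⟩ : ∃ c', c' ∉ m ∧ c' ∉ b ∧ c ∈ insert c' m := by
    by_cases hcm : c ∈ m
    · obtain ⟨c', hc1, hc2⟩ := exists_free m b
      exact ⟨c', hc1, hc2, Finset.mem_insert_of_mem hcm⟩
    · exact ⟨c, hcm, h2 c hc, Finset.mem_insert_self _ _⟩
  refine ⟨c', hc1, hc2, Or.inr fun d hd1 hd2 => ?_⟩
  have hdM : d ∉ M := fun hd => hd1 (Finset.mem_insert_of_mem (h1 d hd))
  have hdc : d ≠ c := fun hd => hd1 (hd ▸ hc3)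
  obtain ⟨M', E', hg, hM', hE', hd⟩ := h d hdM hdc
  refine hg _ _ (fun x hx => ?_) (fun x hx => ?_)
  · rcases hM' x hx with h | rfl
    · exact Finset.mem_insert_of_mem (h1 x h)
    · exact hc3
  · rw [Finset.mem_insert, not_or]
    exact ⟨fun h => hd (h ▸ hx), h2 x (hE' x hx)⟩

open Classical in
/-- The choice of Maker in a won position. -/
noncomputable def pick (n : ℕ) (m b : Finset Cell) : Cell :=
  if h : ∃ c, c ∉ m ∧ c ∉ b ∧ ((∃ A, IsCopy A ∧ A ⊆ insert c m) ∨
      ∀ d, d ∉ insert c m → d ∉ b → WinIn n (insert c m) (insert d b)) then h.choose else (0, 0)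

theorem pick_spec {n : ℕ} {m b : Finset Cell} (h : WinIn (n + 1) m b) :
    pick n m b ∉ m ∧ pick n m b ∉ b ∧ ((∃ A, IsCopy A ∧ A ⊆ insert (pick n m b) m) ∨
      ∀ d, d ∉ insert (pick n m b) m → d ∉ b →
        WinIn n (insert (pick n m b) m) (insert d b)) := by
  have h' : ∃ c, c ∉ m ∧ c ∉ b ∧ ((∃ A, IsCopy A ∧ A ⊆ insert c m) ∨
      ∀ d, d ∉ insert c m → d ∉ b → WinIn n (insert c m) (insert d b)) := h
  have e : pick n m b = h'.choose := dif_pos h'
  rw [e]
  exact h'.choose_spec

/-- The state (remaining turns, Maker cells, Breaker cells) after a list of Breaker claims. -/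
noncomputable def stepState (s : ℕ × Finset Cell × Finset Cell) (d : Cell) :
    ℕ × Finset Cell × Finset Cell :=
  (s.1 - 1, insert (pick (s.1 - 1) s.2.1 s.2.2) s.2.1, insert d s.2.2)

/-- The state after a list of Breaker claims. -/
noncomputable def state (N : ℕ) (l : List Cell) : ℕ × Finset Cell × Finset Cell :=
  l.foldl stepState (N, ∅, ∅)

/-- The strategy. -/
noncomputable def strat (N : ℕ) : Strategy := fun l =>
  pick ((state N l).1 - 1) (state N l).2.1 (state N l).2.2

theorem state_succ (N : ℕ) (b : ℕ → Cell) (n : ℕ) :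
    state N ((List.range (n + 1)).map b) = stepState (state N ((List.range n).map b)) (b n) := by
  simp [state, List.range_succ, List.foldl_append]

theorem state_eq (N : ℕ) (b : ℕ → Cell) (n : ℕ) :
    state N ((List.range n).map b) =
      (N - n, makerCells (strat N) b n, breakerCells b n) := by
  induction n with
  | zero => simp [state, makerCells, breakerCells]
  | succ n ih =>
    rw [state_succ]
    have h1 : makerCells (strat N) b (n + 1) =
        insert (makerClaim (strat N) b n) (makerCells (strat N) b n) := by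
      simp [makerCells, Finset.range_add_one, Finset.image_insert]
    have h2 : breakerCells b (n + 1) = insert (b n) (breakerCells b n) := by
      simp [breakerCells, Finset.range_add_one, Finset.image_insert]
    have h3 : makerClaim (strat N) b n =
        pick (N - n - 1) (makerCells (strat N) b n) (breakerCells b n) := by
      simp only [makerClaim, strat, ih]
    rw [ih, h1, h2, h3]
    simp only [stepState, Nat.sub_sub]

theorem makerClaim_eq (N : ℕ) (b : ℕ → Cell) (n : ℕ) : makerClaim (strat N) b n =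
    pick (N - n - 1) (makerCells (strat N) b n) (breakerCells b n) := by
  simp only [makerClaim, strat, state_eq]

theorem makerCells_succ (σ : Strategy) (b : ℕ → Cell) (n : ℕ) : makerCells σ b (n + 1) =
    insert (makerClaim σ b n) (makerCells σ b n) := by
  simp [makerCells, Finset.range_add_one, Finset.image_insert]

theorem breakerCells_succ (b : ℕ → Cell) (n : ℕ) : breakerCells b (n + 1) =
    insert (b n) (breakerCells b n) := by
  simp [breakerCells, Finset.range_add_one, Finset.image_insert]

theorem makerWinsWithin_of_winIn {N : ℕ} (h : WinIn N ∅ ∅) : MakerWinsWithin N := by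
  refine ⟨strat N, fun b hb => ?_⟩
  by_contra hcon
  push Not at hcon
  have key : ∀ n, n ≤ N → (WinIn (N - n) (makerCells (strat N) b n) (breakerCells b n) ∧
      (∀ k < n, ¬ MakerDone (strat N) b k) ∧ ∀ k < n, MakerLegal (strat N) b k) := by
    intro n
    induction n with
    | zero => intro _; refine ⟨by simpa [makerCells, breakerCells] using h, by simp, by simp⟩
    | succ n ih =>
      intro hn
      obtain ⟨hw, hd, hl⟩ := ih (by omega)
      have e : N - n = (N - (n + 1)) + 1 := by omega
      have e' : N - n - 1 = N - (n + 1) := by omega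
      rw [e] at hw
      have hs := pick_spec hw
      rw [← e', ← makerClaim_eq] at hs
      have hleg : MakerLegal (strat N) b n := by
        unfold MakerLegal
        rw [Finset.mem_union, not_or]
        exact ⟨hs.1, hs.2.1⟩
      have hleg' : ∀ k < n + 1, MakerLegal (strat N) b k := by
        intro k hk
        rcases Nat.lt_succ_iff_lt_or_eq.mp hk with h | rfl
        · exact hl k h
        · exact hleg
      have hnd : ¬ MakerDone (strat N) b n := by
        intro hdone
        obtain ⟨k, hk, hk'⟩ := hcon n (by omega) hdone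
        exact hk' (hleg' k (by omega))
      have hnd' : ∀ k < n + 1, ¬ MakerDone (strat N) b k := by
        intro k hk
        rcases Nat.lt_succ_iff_lt_or_eq.mp hk with h | rfl
        · exact hd k h
        · exact hnd
      refine ⟨?_, hnd', hleg'⟩
      have hbl := hb n (fun k hk => hnd' k (by omega))
      unfold BreakerLegal at hbl
      rw [Finset.mem_union, not_or] at hbl
      rcases hs.2.2 with hA | hA
      · exact absurd (by
          obtain ⟨A, hA1, hA2⟩ := hA
          exact ⟨A, hA1, by rw [makerCells_succ]; exact hA2⟩) hnd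
      · rw [makerCells_succ] at hbl
        have := hA (b n) hbl.1 hbl.2
        rw [makerCells_succ, breakerCells_succ]
        rw [e'] at this
        exact this
  have := (key N le_rfl).1
  simp only [Nat.sub_self] at this
  exact this

end Vale.Agent.H9.Snaky
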